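import Vale.Agent.P181.T3.Spec2

/-!
P181, three-row extension, row E (COMBINATORICS of the labels).

For every even set `A` of labels there are distributions `r, r'` of the labels to `q` forms such
that flips of forms on both sides which agree on `A` flip an even number of elements of `A`.
Enumerate the labels of each type, those of `A` first (index `j`), and put `r = j / c`,
`r' = (j + 1 mod q c) / c`. Consecutive labels of `A` share a form of `r` or of `r'`, and index `0`
lies in form `0`; so the flip is constant on `A`.
-/

set_option autoImplicit false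

namespace Vale.Agent.P181.T3

open Finset

/-- Enumeration of a finite set `S` with the elements of `A` first. -/
theorem comb_enum {α : Type*} [DecidableEq α] (A S : Finset α) :
    ∃ e : α → ℕ, (∀ x ∈ S, e x < S.card) ∧ (∀ x ∈ S, ∀ y ∈ S, e x = e y → x = y) ∧
      ∀ x ∈ S, x ∈ A → ∀ j, j < e x → ∃ y ∈ S, y ∈ A ∧ e y = j := by
  induction S using Finset.induction_on with
  | empty => exact ⟨fun _ => 0, by simp, by simp, by simp⟩
  | insert x S hx ih =>
    obtain ⟨e, h1, h2, h3⟩ := ih
    have hc : (insert x S).card = S.card + 1 := card_insert_of_notMem hx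
    have hne : ∀ y ∈ S, y ≠ x := fun y hy h => hx (h ▸ hy)
    by_cases hA : x ∈ A
    · refine ⟨fun y => if y = x then 0 else e y + 1, ?_, ?_, ?_⟩
      · intro y hy
        rcases mem_insert.1 hy with rfl | hy
        · simp [hc]
        · have := h1 y hy
          simp only [hne y hy, if_false, hc]
          omega
      · intro y hy z hz h
        rcases mem_insert.1 hy with rfl | hy' <;> rcases mem_insert.1 hz with rfl | hz'
        · rfl
        · simp [hne z hz'] at h
        · simp [hne y hy'] at h
        · simp only [hne y hy', hne z hz', if_false] at h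
          exact h2 y hy' z hz' (by omega)
      · intro y hy hyA j hj
        rcases mem_insert.1 hy with rfl | hy
        · simp at hj
        · simp only [hne y hy, if_false] at hj
          rcases j with _ | j
          · exact ⟨x, mem_insert_self _ _, hA, by simp⟩
          · obtain ⟨z, hz, hzA, hzj⟩ := h3 y hy hyA j (by omega)
            exact ⟨z, mem_insert_of_mem hz, hzA, by simp [hne z hz, hzj]⟩
    · refine ⟨fun y => if y = x then S.card else e y, ?_, ?_, ?_⟩
      · intro y hy
        rcases mem_insert.1 hy with rfl | hy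
        · simp [hc]
        · have := h1 y hy
          simp only [hne y hy, if_false, hc]
          omega
      · intro y hy z hz h
        rcases mem_insert.1 hy with rfl | hy' <;> rcases mem_insert.1 hz with rfl | hz'
        · rfl
        · simp only [hne z hz', if_false, if_true] at h
          have := h1 z hz'
          omega
        · simp only [hne y hy', if_false, if_true] at h
          have := h1 y hy'
          omega
        · simp only [hne y hy', hne z hz', if_false] at h
          exact h2 y hy' z hz' h
      · intro y hy hyA j hj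
        rcases mem_insert.1 hy with rfl | hy
        · exact absurd hyA hA
        · simp only [hne y hy, if_false] at hj
          obtain ⟨z, hz, hzA, hzj⟩ := h3 y hy hyA j hj
          exact ⟨z, mem_insert_of_mem hz, hzA, by simp [hne z hz, hzj]⟩

/-- Blocks of length `c` have `c` elements. -/
theorem comb_block {c q : ℕ} (hc : 0 < c) {φ : ℕ} (hφ : φ < q) :
    ((range (q * c)).filter (fun j => j / c = φ)).card = c := by
  have : (range (q * c)).filter (fun j => j / c = φ) = Ico (φ * c) ((φ + 1) * c) := by
    ext j
    simp only [mem_filter, mem_range, mem_Ico]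
    constructor
    · rintro ⟨-, h⟩
      constructor
      · exact (Nat.le_div_iff_mul_le hc).1 h.ge
      · exact (Nat.div_lt_iff_lt_mul hc).1 (by omega)
    · rintro ⟨h1, h2⟩
      have h3 : φ ≤ j / c := (Nat.le_div_iff_mul_le hc).2 h1
      have h4 : j / c < φ + 1 := (Nat.div_lt_iff_lt_mul hc).2 h2
      refine ⟨lt_of_lt_of_le h2 (Nat.mul_le_mul_right c hφ), by omega⟩
  rw [this, Nat.card_Ico, add_mul, one_mul]
  omega

/-- Counting in the fibres of an enumeration. -/
theorem comb_count {α : Type*} [DecidableEq α] {S : Finset α} {c q : ℕ} (hc : 0 < c)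
    (hS : S.card = q * c) {e : α → ℕ} (h1 : ∀ x ∈ S, e x < q * c)
    (h2 : ∀ x ∈ S, ∀ y ∈ S, e x = e y → x = y) {φ : ℕ} (hφ : φ < q) :
    (S.filter (fun x => e x / c = φ)).card = c := by
  have hinj : Set.InjOn e (S : Set α) := fun x hx y hy h => h2 x hx y hy h
  have him : S.image e = range (q * c) := by
    apply Finset.eq_of_subset_of_card_le
    · intro j hj
      obtain ⟨x, hx, rfl⟩ := mem_image.1 hj
      exact mem_range.2 (h1 x hx)
    · rw [card_range, card_image_of_injOn hinj, hS]
  have hf : (S.filter (fun x => e x / c = φ)).image e =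
      (range (q * c)).filter (fun j => j / c = φ) := by
    rw [← him, filter_image]
  have hinj' : Set.InjOn e ((S.filter (fun x => e x / c = φ) : Finset α) : Set α) :=
    hinj.mono (fun x hx => (mem_filter.1 hx).1)
  rw [← card_image_of_injOn hinj', hf, comb_block hc hφ]

/-- The two distributions of the labels (general form of row E). -/
theorem comb_general {q Q : ℕ} (ty : Fin Q → Bool) (c : Bool → ℕ) (hc : ∀ z, c z ≠ 1)
    (hcard : ∀ z, (univ.filter (fun κ => ty κ = z)).card = q * c z) : Comb (q := q) ty c := by
  intro A hA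
  have hex : ∀ z : Bool, ∃ e : Fin Q → ℕ,
      (∀ x, ty x = z → e x < q * c z) ∧ (∀ x, ty x = z → ∀ y, ty y = z → e x = e y → x = y) ∧
      ∀ x, ty x = z → x ∈ A → ∀ j, j < e x → ∃ y, ty y = z ∧ y ∈ A ∧ e y = j := by
    intro z
    obtain ⟨e, h1, h2, h3⟩ := comb_enum A (univ.filter (fun κ => ty κ = z))
    rw [hcard z] at h1
    refine ⟨e, fun x hx => h1 x (by simp [hx]), fun x hx y hy => h2 x (by simp [hx]) y (by simp [hy]),
      fun x hx hxA j hj => ?_⟩
    obtain ⟨y, hy, hyA, hyj⟩ := h3 x (by simp [hx]) hxA j hj
    exact ⟨y, by simpa using hy, hyA, hyj⟩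
  choose e h1 h2 h3 using hex
  -- shifted enumeration
  obtain ⟨e', he'⟩ : ∃ e' : Bool → Fin Q → ℕ,
      ∀ z x, e' z x = if e z x + 1 = q * c z then 0 else e z x + 1 := ⟨_, fun _ _ => rfl⟩
  have h1' : ∀ z x, ty x = z → e' z x < q * c z := by
    intro z x hx
    have := h1 z x hx
    rw [he']
    split_ifs <;> omega
  have h2' : ∀ z x, ty x = z → ∀ y, ty y = z → e' z x = e' z y → x = y := by
    intro z x hx y hy h
    apply h2 z x hx y hy
    have h1x := h1 z x hx
    have h1y := h1 z y hy
    rw [he', he'] at h
    split_ifs at h <;> omega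
  have hdiv : ∀ (z : Bool) (j : ℕ), j < q * c z → j / c z < q := by
    intro z j hj
    exact Nat.div_lt_of_lt_mul (by rwa [mul_comm] at hj)
  have hcount : ∀ (E : Bool → Fin Q → ℕ) (hE1 : ∀ z x, ty x = z → E z x < q * c z)
      (_ : ∀ z x, ty x = z → ∀ y, ty y = z → E z x = E z y → x = y),
      Typed ty c (fun κ => (⟨E (ty κ) κ / c (ty κ), hdiv _ _ (hE1 _ _ rfl)⟩ : Fin q)) := by
    intro E hE1 hE2 φ z
    by_cases hz : c z = 0
    · have : (univ.filter (fun κ => ty κ = z)) = ∅ := by
        rw [← card_eq_zero, hcard z, hz, mul_zero]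
      rw [hz, card_eq_zero]
      apply Finset.eq_empty_of_forall_notMem
      intro κ hκ
      have h2 : κ ∈ univ.filter (fun κ => ty κ = z) :=
        mem_filter.2 ⟨mem_univ _, (mem_filter.1 hκ).2.2⟩
      rw [this] at h2
      exact absurd h2 (notMem_empty _)
    · have h := comb_count (S := univ.filter (fun κ => ty κ = z)) (Nat.pos_of_ne_zero hz) (hcard z)
        (e := E z) (fun x hx => hE1 z x (by simpa using hx))
        (fun x hx y hy => hE2 z x (by simpa using hx) y (by simpa using hy)) φ.2
      rw [← h]
      congr 1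
      ext κ
      simp only [mem_filter, mem_univ, true_and, Fin.ext_iff]
      constructor
      · rintro ⟨h4, rfl⟩
        exact ⟨rfl, h4⟩
      · rintro ⟨rfl, h4⟩
        exact ⟨h4, rfl⟩
  refine ⟨fun κ => ⟨e (ty κ) κ / c (ty κ), hdiv _ _ (h1 _ _ rfl)⟩,
    fun κ => ⟨e' (ty κ) κ / c (ty κ), hdiv _ _ (h1' _ _ rfl)⟩, hcount e h1 h2,
    hcount e' h1' h2', ?_⟩
  intro f f' hf
  by_cases hAe : A = ∅
  · simp [hAe]
  obtain ⟨κ₀, hκ₀⟩ := Finset.nonempty_iff_ne_empty.2 hAe
  have hq : 0 < q := lt_of_le_of_lt (Nat.zero_le _) (hdiv _ _ (h1 _ κ₀ rfl))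
  have key : ∀ j κ, κ ∈ A → e (ty κ) κ = j →
      f ⟨e (ty κ) κ / c (ty κ), hdiv _ _ (h1 _ _ rfl)⟩ = f ⟨0, hq⟩ := by
    intro j
    induction j with
    | zero =>
      intro κ _ hκ
      congr 1
      simp [hκ]
    | succ j ih =>
      intro κ hκA hκ
      obtain ⟨κ', hty, hκ'A, hκ'⟩ := h3 (ty κ) κ rfl hκA j (by omega)
      have ih' := ih κ' hκ'A (by rw [hty]; exact hκ')
      rw [← ih']
      have hlt := h1 (ty κ) κ rfl
      have hcz : c (ty κ) ≠ 0 := by
        intro h
        rw [h, mul_zero] at hlt
        omega
      have hc1 := hc (ty κ)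
      by_cases hd : c (ty κ) ∣ j + 1
      · have a1 := hf κ hκA
        have a2 := hf κ' hκ'A
        simp only at a1 a2
        rw [a1, a2]
        congr 1
        simp only [Fin.ext_iff, hty]
        rw [he', he', hκ, hκ']
        have hnd : ¬ c (ty κ) ∣ (j + 1) + 1 := by
          intro h
          have := (Nat.dvd_add_right hd).1 h
          exact hc1 (Nat.dvd_one.1 this)
        have hne2 : j + 1 + 1 ≠ q * c (ty κ) := by
          intro h
          exact hnd (h ▸ Dvd.intro_left q rfl)
        have hne1 : j + 1 ≠ q * c (ty κ) := by omega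
        rw [if_neg hne2, if_neg hne1, Nat.succ_div, if_neg hnd, add_zero]
      · congr 1
        simp only [Fin.ext_iff, hty, hκ, hκ']
        rw [Nat.succ_div, if_neg hd, add_zero]
  by_cases hf0 : f ⟨0, hq⟩ = true
  · rw [Finset.filter_true_of_mem]
    · exact hA
    · intro κ hκ
      exact (key _ κ hκ rfl).trans hf0
  · rw [Finset.filter_false_of_mem]
    · simp
    · intro κ hκ h
      exact hf0 ((key _ κ hκ rfl).symm.trans h)

/-- Row E. -/
theorem comb_stmt : CombStmt := by
  intro q
  apply comb_general
  · intro z
    cases z <;> simp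
  · intro z
    have h2 : (univ.filter (fun κ : Fin (5 * q) => (κ : ℕ) < 2 * q)).card = 2 * q := by
      rw [Fin.card_filter_val_lt]
      omega
    cases z
    · have h := Finset.card_filter_add_card_filter_not (s := (univ : Finset (Fin (5 * q))))
        (fun κ => (κ : ℕ) < 2 * q)
      rw [h2] at h
      simp only [card_univ, Fintype.card_fin, decide_eq_false_iff_not, Bool.false_eq_true,
        if_false] at h ⊢
      omega
    · simp only [decide_eq_true_eq, if_true]
      rw [h2]
      ring

/-- The even case: one type, two labels per form. -/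
theorem comb_even (q : ℕ) : Comb (q := q) (Q := 2 * q) (fun _ => true)
    (fun z => if z then 2 else 0) := by
  apply comb_general
  · intro z
    cases z <;> simp
  · intro z
    cases z
    · simp
    · simp [mul_comm]

end Vale.Agent.P181.T3
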