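import Mathlib

/-! P181, LK: numbers for the almost all form. -/

namespace Vale.Agent.P181.H649

open Filter

theorem ev_log (C : ℝ) (k : ℕ) : ∀ᶠ a : ℕ in atTop, C * Real.log a ^ k ≤ (a : ℝ) ^ ((1 : ℝ) / 7) := by
  have h1 : (fun x : ℝ => Real.log x ^ (k : ℝ)) =o[atTop] fun x : ℝ => x ^ ((1 : ℝ) / 7) :=
    isLittleO_log_rpow_rpow_atTop (k : ℝ) (by norm_num)
  have h2 := (h1.comp_tendsto tendsto_natCast_atTop_atTop).def
    (show (0 : ℝ) < 1 / (|C| + 1) by positivity)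
  filter_upwards [h2, eventually_ge_atTop 1] with a ha ha1
  have hl : 0 ≤ Real.log (a : ℝ) := Real.log_natCast_nonneg a
  simp only [Function.comp_apply, Real.norm_eq_abs, Real.rpow_natCast] at ha
  rw [abs_of_nonneg (pow_nonneg hl k), abs_of_nonneg (Real.rpow_nonneg (Nat.cast_nonneg a) _)] at ha
  have hC : C ≤ |C| + 1 := by linarith [le_abs_self C]
  have hC0 : (0 : ℝ) < |C| + 1 := by positivity
  calc C * Real.log a ^ k ≤ (|C| + 1) * Real.log a ^ k :=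
        mul_le_mul_of_nonneg_right hC (pow_nonneg hl k)
    _ ≤ (|C| + 1) * (1 / (|C| + 1) * (a : ℝ) ^ ((1 : ℝ) / 7)) := mul_le_mul_of_nonneg_left ha hC0.le
    _ = (a : ℝ) ^ ((1 : ℝ) / 7) := by field_simp

theorem num8 : ∀ᶠ a : ℕ in atTop, ∀ b : ℕ, (10 : ℝ) ^ 8 * (a : ℝ) * (Real.log a) ^ 2 ≤ b →
    (b : ℝ) ≤ (a : ℝ) ^ ((8 : ℝ) / 7) → ∃ s : ℕ, 1 ≤ s ∧ 43680 * (s + 1) ^ 2 ≤ b / a ∧
      (10 : ℝ) ^ 6 * (s : ℝ) ^ 13 * ((b / a : ℕ) : ℝ) ^ 6 * Real.log a ≤ a ∧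
      a * (a * b + 17) ≤ 2 ^ (s / 4) := by
  have hL : ∀ᶠ a : ℕ in atTop, (1000 : ℝ) ≤ Real.log a :=
    (Real.tendsto_log_atTop.comp tendsto_natCast_atTop_atTop).eventually_ge_atTop 1000
  filter_upwards [hL, ev_log (10 ^ 6 * 21 ^ 13) 14, eventually_ge_atTop 20] with a hL hlog ha20
  intro b hb1 hb2
  have ha0 : (0 : ℝ) < a := by exact_mod_cast (by omega : 0 < a)
  set L := Real.log (a : ℝ) with hLdef
  have hexp : Real.exp L = a := Real.exp_log ha0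
  obtain ⟨s, hs⟩ : ∃ s : ℕ, s = ⌈20 * L⌉₊ := ⟨_, rfl⟩
  have hs1 : 20 * L ≤ s := by rw [hs]; exact Nat.le_ceil _
  have hs2 : (s : ℝ) < 20 * L + 1 := by rw [hs]; exact Nat.ceil_lt_add_one (by linarith)
  have hdiv1 : ((b / a : ℕ) : ℝ) ≤ b / a := Nat.cast_div_le
  have hdiv2 : (b : ℝ) / a < ((b / a : ℕ) : ℝ) + 1 := by
    rw [div_lt_iff₀ ha0]
    have h := Nat.lt_div_mul_add (a := b) (show 0 < a by omega)
    have h' : b < (b / a + 1) * a := by rw [add_mul, one_mul]; exact h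
    exact_mod_cast h'
  have hpow : (a : ℝ) ^ ((8 : ℝ) / 7) = a * (a : ℝ) ^ ((1 : ℝ) / 7) := by
    rw [show (8 : ℝ) / 7 = 1 + 1 / 7 by norm_num, Real.rpow_add ha0, Real.rpow_one]
  have hA0 : 0 ≤ (a : ℝ) ^ ((1 : ℝ) / 7) := Real.rpow_nonneg ha0.le _
  have hdiv3 : ((b / a : ℕ) : ℝ) ≤ (a : ℝ) ^ ((1 : ℝ) / 7) := by
    refine hdiv1.trans ?_
    rw [div_le_iff₀ ha0]
    rw [hpow] at hb2
    linarith
  refine ⟨s, ?_, ?_, ?_, ?_⟩
  · have : (1 : ℝ) ≤ s := by linarith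
    exact_mod_cast this
  · have h1 : (10 : ℝ) ^ 8 * L ^ 2 ≤ b / a := by
      rw [le_div_iff₀ ha0]
      linarith
    have h2 : (43680 : ℝ) * ((s : ℝ) + 1) ^ 2 < ((b / a : ℕ) : ℝ) + 1 := by
      have h3 : ((s : ℝ) + 1) ^ 2 ≤ (21 * L) ^ 2 :=
        pow_le_pow_left₀ (by positivity) (by linarith) 2
      nlinarith
    have h4 : 43680 * (s + 1) ^ 2 < b / a + 1 := by exact_mod_cast h2
    omega
  · have h1 : (s : ℝ) ^ 13 ≤ (21 * L) ^ 13 := pow_le_pow_left₀ (by positivity) (by linarith) 13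
    have h2 : ((b / a : ℕ) : ℝ) ^ 6 ≤ ((a : ℝ) ^ ((1 : ℝ) / 7)) ^ 6 :=
      pow_le_pow_left₀ (by positivity) hdiv3 6
    have hL0 : 0 ≤ L := by linarith
    have h3 : ((a : ℝ) ^ ((1 : ℝ) / 7)) ^ 7 = a := by
      rw [← Real.rpow_natCast, ← Real.rpow_mul ha0.le]
      norm_num
    calc (10 : ℝ) ^ 6 * (s : ℝ) ^ 13 * ((b / a : ℕ) : ℝ) ^ 6 * L
        ≤ (10 : ℝ) ^ 6 * (21 * L) ^ 13 * ((a : ℝ) ^ ((1 : ℝ) / 7)) ^ 6 * L := by gcongr
      _ = (10 ^ 6 * 21 ^ 13 * L ^ 14) * ((a : ℝ) ^ ((1 : ℝ) / 7)) ^ 6 := by ring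
      _ ≤ (a : ℝ) ^ ((1 : ℝ) / 7) * ((a : ℝ) ^ ((1 : ℝ) / 7)) ^ 6 :=
          mul_le_mul_of_nonneg_right hlog (pow_nonneg hA0 6)
      _ = ((a : ℝ) ^ ((1 : ℝ) / 7)) ^ 7 := by ring
      _ = a := h3
  · have h1 : 5 * L - 1 ≤ ((s / 4 : ℕ) : ℝ) := by
      have h2 : s < (s / 4 + 1) * 4 := by omega
      have h3 : (s : ℝ) < (((s / 4 : ℕ) : ℝ) + 1) * 4 := by exact_mod_cast h2
      linarith
    have h2 : Real.exp (3.45 * L - 0.7) ≤ ((2 ^ (s / 4) : ℕ) : ℝ) := by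
      have e1 : ((2 ^ (s / 4) : ℕ) : ℝ) = Real.exp (Real.log 2 * ((s / 4 : ℕ) : ℝ)) := by
        rw [Real.exp_mul, Real.exp_log (by norm_num), Real.rpow_natCast]
        push_cast
        ring
      rw [e1]
      apply Real.exp_le_exp.2
      have l1 := Real.log_two_gt_d9
      have l2 := Real.log_two_lt_d9
      have h5 : Real.log 2 * (5 * L - 1) ≤ Real.log 2 * ((s / 4 : ℕ) : ℝ) :=
        mul_le_mul_of_nonneg_left h1 (by linarith)
      nlinarith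
    have h3 : (a : ℝ) ^ ((8 : ℝ) / 7) = Real.exp (8 / 7 * L) := by
      rw [Real.rpow_def_of_pos ha0, mul_comm]
    have h4 : ((a * (a * b + 17) : ℕ) : ℝ) ≤ Real.exp (3.45 * L - 0.7) := by
      push_cast
      have h5 : (a : ℝ) * (a * b + 17) ≤ 2 * (a * (a * (a : ℝ) ^ ((8 : ℝ) / 7))) := by
        have h6 : (17 : ℝ) ≤ a * (a : ℝ) ^ ((8 : ℝ) / 7) := by
          have h7 : (1 : ℝ) ≤ (a : ℝ) ^ ((8 : ℝ) / 7) :=
            Real.one_le_rpow (by exact_mod_cast (by omega : 1 ≤ a)) (by norm_num)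
          have h8 : (20 : ℝ) ≤ a := by exact_mod_cast ha20
          nlinarith
        have h9 : (a : ℝ) * b ≤ a * (a : ℝ) ^ ((8 : ℝ) / 7) := mul_le_mul_of_nonneg_left hb2 ha0.le
        nlinarith
      refine h5.trans ?_
      rw [h3, ← hexp, ← Real.exp_add, ← Real.exp_add]
      have h10 : (2 : ℝ) ≤ Real.exp 1 := by
        have := Real.add_one_le_exp (1 : ℝ)
        linarith
      calc 2 * Real.exp (L + (L + 8 / 7 * L)) ≤ Real.exp 1 * Real.exp (L + (L + 8 / 7 * L)) :=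
            mul_le_mul_of_nonneg_right h10 (Real.exp_pos _).le
        _ = Real.exp (1 + (L + (L + 8 / 7 * L))) := by rw [← Real.exp_add]
        _ ≤ Real.exp (3.45 * L - 0.7) := by
            apply Real.exp_le_exp.2
            linarith
    have h11 := h4.trans h2
    exact_mod_cast h11

end Vale.Agent.P181.H649
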