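import Mathlib.Tactic
import Mathlib.Data.Fintype.BigOperators
import Mathlib.Analysis.Complex.Basic

/-!
P181, general number of rows: from the system `PM` for small groups of rows (parts) to a
filling all of whose regroupings preserve the parts.
-/

set_option autoImplicit false

namespace Vale.Agent.P181.GK

open Finset

/-- The power map system for `s` rows, `q` forms per row and `k` pieces per form. -/
def PM (s k q : ℕ) : Prop :=
  ∀ (P : Type) [Fintype P] [DecidableEq P] (W : (P → Fin s) → ℂ),
    (∀ (τ : Equiv.Perm (Fin s)) y, W (fun p => τ (y p)) = W y) →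
    (∀ ρ : P → Fin s × Fin q, (∀ r, (univ.filter (fun p => ρ p = r)).card = k) →
      ∑ σ : Equiv.Perm (Fin s × Fin q), W (fun p => (σ (ρ p)).1) = 0) →
    ∀ y : P → Fin s, (∀ m, (univ.filter (fun p => y p = m)).card = q * k) → W y = 0

/-- The same for any finite set of rows. -/
theorem PM.general {s k q : ℕ} (h : PM s k q) {R P : Type} [Fintype R] [DecidableEq R] [Fintype P]
    [DecidableEq P] (hR : Fintype.card R = s) (W : (P → R) → ℂ)
    (hsym : ∀ (τ : Equiv.Perm R) y, W (fun p => τ (y p)) = W y)
    (hrel : ∀ ρ : P → R × Fin q, (∀ r, (univ.filter (fun p => ρ p = r)).card = k) →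
      ∑ σ : Equiv.Perm (R × Fin q), W (fun p => (σ (ρ p)).1) = 0)
    (y : P → R) (hy : ∀ m, (univ.filter (fun p => y p = m)).card = q * k) : W y = 0 := by
  classical
  let e : R ≃ Fin s := Fintype.equivFinOfCardEq hR
  have h1 := h P (fun w => W (fun p => e.symm (w p))) ?_ ?_ (fun p => e (y p)) ?_
  · simpa using h1
  · intro τ w
    have := hsym ((e.trans τ).trans e.symm) (fun p => e.symm (w p))
    simpa using this
  · intro ρ hρ
    have h2 := hrel (fun p => (e.symm (ρ p).1, (ρ p).2)) ?_
    · rw [← h2]
      let E : R × Fin q ≃ Fin s × Fin q := Equiv.prodCongr e (Equiv.refl _)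
      refine (Fintype.sum_equiv E.symm.permCongr _ _ ?_)
      intro σ
      congr 1
      funext p
      have h3 : E (e.symm (ρ p).1, (ρ p).2) = ρ p := by
        simp [E]
      simp only [Equiv.permCongr_apply, Equiv.symm_symm, h3]
      rfl
    · intro r
      rw [← hρ (e r.1, r.2)]
      congr 1
      ext p
      simp only [mem_filter, mem_univ, true_and, Prod.ext_iff]
      rw [Equiv.symm_apply_eq]
  · intro m
    rw [← hy (e.symm m)]
    congr 1
    ext p
    simp only [mem_filter, mem_univ, true_and]
    rw [Equiv.eq_symm_apply]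

/-- Tensor trick, abstract form. -/
theorem tensor_abs {ι : Type} [Fintype ι] [DecidableEq ι] {X A G : ι → Type}
    [∀ c, Fintype (G c)] [∀ c, Nonempty (G c)] (r : ∀ c, A c → G c → X c)
    (B : ∀ c, X c → Prop) (S : ∀ c, (X c → X c) → Prop)
    (hPM : ∀ c (W : X c → ℂ), (∀ s, S c s → ∀ x, W (s x) = W x) →
      (∀ ρ, ∑ g, W (r c ρ g) = 0) → ∀ x, B c x → W x = 0)
    (V : (∀ c, X c) → ℂ)
    (hsym : ∀ c s, S c s → ∀ x : ∀ c, X c, V (Function.update x c (s (x c))) = V x)
    (hrel : ∀ ρ : ∀ c, A c, ∑ g : ∀ c, G c, V (fun c => r c (ρ c) (g c)) = 0)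
    (y : ∀ c, X c) (hy : ∀ c, B c (y c)) : V y = 0 := by
  classical
  let val : ∀ c, A c ⊕ X c → G c → X c := fun c z g => Sum.elim (fun ρ => r c ρ g) (fun x => x) z
  have key : ∀ n (z : ∀ c, A c ⊕ X c), (univ.filter (fun c => (z c).isRight = true)).card = n →
      (∀ c x, z c = Sum.inr x → B c x) →
      ∑ g : ∀ c, G c, V (fun c => val c (z c) (g c)) = 0 := by
    intro n
    induction n with
    | zero =>
      intro z hz _
      have hz' : ∀ c, ∃ ρ, z c = Sum.inl ρ := by
        intro c
        rcases hc : z c with ρ | x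
        · exact ⟨ρ, rfl⟩
        · have : c ∈ univ.filter (fun c => (z c).isRight = true) := by simp [hc]
          rw [card_eq_zero.1 hz] at this
          exact absurd this (notMem_empty _)
      choose ρ hρ using hz'
      rw [← hrel ρ]
      apply Finset.sum_congr rfl
      intro g _
      congr 1
      funext c
      simp [val, hρ]
    | succ n ih =>
      intro z hz hB
      have hne : (univ.filter (fun c => (z c).isRight = true)).Nonempty := by
        rw [← card_pos, hz]
        omega
      obtain ⟨c, hc⟩ := hne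
      have hcr : (z c).isRight = true := by simpa using hc
      obtain ⟨x₀, hx₀⟩ : ∃ x, z c = Sum.inr x := by
        rcases h : z c with ρ | x
        · simp [h] at hcr
        · exact ⟨x, rfl⟩
      have hW := hPM c
        (fun x => ∑ g : ∀ c, G c, V (Function.update (fun c => val c (z c) (g c)) c x)) ?_ ?_ x₀
        (hB c x₀ hx₀)
      · rw [← hW]
        apply Finset.sum_congr rfl
        intro g _
        congr 1
        funext c'
        by_cases h : c' = c
        · subst h
          simp [val, hx₀]
        · simp [h]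
      · intro s hs x
        apply Finset.sum_congr rfl
        intro g _
        have := hsym c s hs (Function.update (fun c => val c (z c) (g c)) c x)
        simpa using this
      · intro ρ
        have hz' := ih (Function.update z c (Sum.inl ρ)) ?_ ?_
        · have hstep : ∀ x : G c, ∀ g : ∀ c, G c,
              V (Function.update (fun c => val c (z c) (g c)) c (r c ρ x)) =
              V (fun c' => val c' (Function.update z c (Sum.inl ρ) c')
                ((Function.update g c x) c')) := by
            intro x g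
            congr 1
            funext c'
            by_cases h : c' = c
            · subst h
              simp [val]
            · simp [h]
          simp only [hstep]
          rw [← Fintype.sum_prod_type']
          let inv : G c × (∀ c, G c) → G c × (∀ c, G c) :=
            fun x => (x.2 c, Function.update x.2 c x.1)
          have hinv : Function.Involutive inv := by
            intro x
            simp [inv]
          have h3 := Fintype.sum_equiv (hinv.toPerm inv)
            (fun x : G c × (∀ c, G c) => V (fun c' => val c'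
              (Function.update z c (Sum.inl ρ) c') ((Function.update x.2 c x.1) c')))
            (fun x : G c × (∀ c, G c) => V (fun c' => val c'
              (Function.update z c (Sum.inl ρ) c') (x.2 c'))) ?_
          · rw [h3, Fintype.sum_prod_type]
            simp only [hz', Finset.sum_const_zero]
          · intro x
            rfl
        · have h4 : univ.filter (fun c' => (Function.update z c (Sum.inl ρ) c').isRight = true) =
              (univ.filter (fun c => (z c).isRight = true)).erase c := by
            ext c'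
            by_cases h : c' = c
            · subst h
              simp
            · simp [h]
          rw [h4, card_erase_of_mem hc, hz]
          omega
        · intro c' x hx
          by_cases h : c' = c
          · subst h
            simp at hx
          · rw [Function.update_of_ne h] at hx
            exact hB c' x hx
  have h := key _ (fun c => Sum.inr (y c)) rfl (by
    intro c x hx
    have : y c = x := by simpa using hx
    rw [← this]
    exact hy c)
  simp only [val, Sum.elim_inr, Finset.sum_const, card_univ, nsmul_eq_mul] at h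
  rcases mul_eq_zero.1 h with h | h
  · exact absurd h (by exact_mod_cast Fintype.card_ne_zero)
  · exact h

section glue

variable {a q Q : ℕ} (part : Fin a → Fin a)

/-- Rows of a part. -/
abbrev Cls (c : Fin a) : Type := {i : Fin a // part i = c}

/-- Pieces of a part. -/
abbrev PC (Q : ℕ) (c : Fin a) : Type := {p : Fin a × Fin Q // part p.1 = c}

/-- Permutations of the parts, as permutations of all slots. -/
def emb (g : ∀ c, Equiv.Perm (Cls part c × Fin q)) : Equiv.Perm (Fin a × Fin q) where
  toFun x := let r := g (part x.1) (⟨x.1, rfl⟩, x.2); (r.1.1, r.2)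
  invFun x := let r := (g (part x.1)).symm (⟨x.1, rfl⟩, x.2); (r.1.1, r.2)
  left_inv x := by
    obtain ⟨i, t⟩ := x
    have key : ∀ (c : Fin a) (u : Cls part c × Fin q), part u.1.1 = c →
        (((g (part u.1.1)).symm (⟨u.1.1, rfl⟩, u.2)).1.1, ((g (part u.1.1)).symm
          (⟨u.1.1, rfl⟩, u.2)).2) = (((g c).symm u).1.1, ((g c).symm u).2) := by
      rintro c ⟨⟨j, hj⟩, t⟩ h
      subst hj
      rfl
    have := key (part i) (g (part i) (⟨i, rfl⟩, t)) (g (part i) (⟨i, rfl⟩, t)).1.2
    simp only [Equiv.symm_apply_apply] at this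
    exact this
  right_inv x := by
    obtain ⟨i, t⟩ := x
    have key : ∀ (c : Fin a) (u : Cls part c × Fin q), part u.1.1 = c →
        (((g (part u.1.1)) (⟨u.1.1, rfl⟩, u.2)).1.1, ((g (part u.1.1))
          (⟨u.1.1, rfl⟩, u.2)).2) = (((g c) u).1.1, ((g c) u).2) := by
      rintro c ⟨⟨j, hj⟩, t⟩ h
      subst hj
      rfl
    have := key (part i) ((g (part i)).symm (⟨i, rfl⟩, t)) ((g (part i)).symm (⟨i, rfl⟩, t)).1.2
    simp only [Equiv.apply_symm_apply] at this
    exact this

theorem emb_apply (g : ∀ c, Equiv.Perm (Cls part c × Fin q)) (c : Fin a)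
    (u : Cls part c × Fin q) : emb part g (u.1.1, u.2) = ((g c u).1.1, (g c u).2) := by
  obtain ⟨⟨j, hj⟩, t⟩ := u
  subst hj
  rfl

theorem emb_mul (g h : ∀ c, Equiv.Perm (Cls part c × Fin q)) :
    emb part (fun c => g c * h c) = emb part g * emb part h := by
  ext1 x
  obtain ⟨i, t⟩ := x
  have h1 := emb_apply part (fun c => g c * h c) (part i) (⟨i, rfl⟩, t)
  have h2 := emb_apply part h (part i) (⟨i, rfl⟩, t)
  have h3 := emb_apply part g (part i) (h (part i) (⟨i, rfl⟩, t))
  simp only at h1 h2 h3
  rw [Equiv.Perm.mul_apply, h1, h2, h3]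
  rfl

theorem emb_surj (σ : Equiv.Perm (Fin a × Fin q)) (hσ : ∀ x, part (σ x).1 = part x.1) :
    ∃ g : ∀ c, Equiv.Perm (Cls part c × Fin q), emb part g = σ := by
  have hσ' : ∀ x, part (σ.symm x).1 = part x.1 := by
    intro x
    have := hσ (σ.symm x)
    rw [Equiv.apply_symm_apply] at this
    exact this.symm
  refine ⟨fun c => ⟨fun u => (⟨(σ (u.1.1, u.2)).1, (hσ _).trans u.1.2⟩, (σ (u.1.1, u.2)).2),
    fun u => (⟨(σ.symm (u.1.1, u.2)).1, (hσ' _).trans u.1.2⟩, (σ.symm (u.1.1, u.2)).2),
    ?_, ?_⟩, ?_⟩
  · intro u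
    simp
  · intro u
    simp
  · ext1 x
    rfl

/-- Permutation of the rows acting on the slots. -/
def rowp (q : ℕ) (τ : Equiv.Perm (Fin a)) : Equiv.Perm (Fin a × Fin q) :=
  Equiv.prodCongr τ (Equiv.refl _)

theorem rowp_apply (τ : Equiv.Perm (Fin a)) (x : Fin a × Fin q) :
    rowp q τ x = (τ x.1, x.2) := rfl

theorem rowp_mul (τ τ' : Equiv.Perm (Fin a)) : rowp q (τ * τ') = rowp q τ * rowp q τ' := rfl

/-- Sum over the part preserving permutations from the sum over all permutations. -/
theorem part_sum (f : Equiv.Perm (Fin a × Fin q) → ℂ)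
    (hrow : ∀ τ σ, f (rowp q τ * σ) = f σ) (htot : ∑ σ, f σ = 0)
    (hsupp : ∀ σ, f σ ≠ 0 → ∃ τ : Equiv.Perm (Fin a), ∀ x, part (τ (σ x).1) = part x.1) :
    ∑ g : ∀ c, Equiv.Perm (Cls part c × Fin q), f (emb part g) = 0 := by
  classical
  let φ : Equiv.Perm (Fin a) × (∀ c, Equiv.Perm (Cls part c × Fin q)) →
    Equiv.Perm (Fin a × Fin q) := fun x => rowp q x.1 * emb part x.2
  let N : Equiv.Perm (Fin a × Fin q) → ℕ := fun σ => (univ.filter (fun x => φ x = σ)).card
  have h1 : ∑ x, f (φ x) = ∑ σ, (N σ : ℂ) * f σ := by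
    rw [← Finset.sum_fiberwise univ φ]
    apply Finset.sum_congr rfl
    intro σ _
    have : ∀ x ∈ univ.filter (fun x => φ x = σ), f (φ x) = f σ := by
      intro x hx
      rw [(mem_filter.1 hx).2]
    rw [Finset.sum_congr rfl this, Finset.sum_const, nsmul_eq_mul]
  have h2 : ∑ x, f (φ x) = (Fintype.card (Equiv.Perm (Fin a)) : ℂ) *
      ∑ g : ∀ c, Equiv.Perm (Cls part c × Fin q), f (emb part g) := by
    rw [Fintype.sum_prod_type]
    simp only [φ, hrow, Finset.sum_const, card_univ, nsmul_eq_mul]
  have h3 : ∀ σ, (N σ : ℂ) * f σ = (N 1 : ℂ) * f σ := by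
    intro σ
    by_cases hσ : f σ = 0
    · rw [hσ, mul_zero, mul_zero]
    · congr 2
      obtain ⟨τ, hτ⟩ := hsupp σ hσ
      obtain ⟨g, hg⟩ := emb_surj part (rowp q τ * σ) (fun x => hτ x)
      have hσ' : σ = rowp q τ⁻¹ * emb part g := by
        rw [hg, ← mul_assoc, ← rowp_mul, inv_mul_cancel]
        rfl
      apply Finset.card_bij'
        (fun (x : Equiv.Perm (Fin a) × (∀ c, Equiv.Perm (Cls part c × Fin q))) _ =>
          ((τ * x.1, fun c => x.2 c * (g c)⁻¹) :
            Equiv.Perm (Fin a) × (∀ c, Equiv.Perm (Cls part c × Fin q))))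
        (fun (x : Equiv.Perm (Fin a) × (∀ c, Equiv.Perm (Cls part c × Fin q))) _ =>
          ((τ⁻¹ * x.1, fun c => x.2 c * g c) :
            Equiv.Perm (Fin a) × (∀ c, Equiv.Perm (Cls part c × Fin q))))
      · intro x hx
        have hx' : rowp q x.1 * emb part x.2 = σ := (mem_filter.1 hx).2
        rw [mem_filter]
        refine ⟨mem_univ _, ?_⟩
        have hinv : emb part (fun c => (g c)⁻¹) = (emb part g)⁻¹ := by
          rw [eq_inv_iff_mul_eq_one, ← emb_mul]
          simp only [inv_mul_cancel]
          rfl
        show rowp q (τ * x.1) * emb part (fun c => x.2 c * (g c)⁻¹) = 1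
        rw [rowp_mul, emb_mul part x.2 (fun c => (g c)⁻¹), hinv, hg, mul_assoc, ← mul_assoc (rowp q x.1), hx', mul_inv_rev]
        group
      · intro x hx
        have hx' : rowp q x.1 * emb part x.2 = 1 := (mem_filter.1 hx).2
        rw [mem_filter]
        refine ⟨mem_univ _, ?_⟩
        show rowp q (τ⁻¹ * x.1) * emb part (fun c => x.2 c * g c) = σ
        rw [rowp_mul, emb_mul, mul_assoc, ← mul_assoc (rowp q x.1), hx', one_mul, hσ']
      · intro x _
        simp
      · intro x _
        simp
  have h4 : (Fintype.card (Equiv.Perm (Fin a)) : ℂ) *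
      ∑ g : ∀ c, Equiv.Perm (Cls part c × Fin q), f (emb part g) = 0 := by
    rw [← h2, h1, Finset.sum_congr rfl (fun σ _ => h3 σ), ← Finset.mul_sum, htot, mul_zero]
  rcases mul_eq_zero.1 h4 with h | h
  · exact absurd h (by exact_mod_cast Fintype.card_ne_zero)
  · exact h

/-- Glue functions on the parts. -/
def glue (w : ∀ c, PC part Q c → Cls part c) : Fin a × Fin Q → Fin a :=
  fun p => (w (part p.1) ⟨p, rfl⟩).1

theorem glue_apply (w : ∀ c, PC part Q c → Cls part c) (c : Fin a) (p : PC part Q c) :
    glue part w p.1 = (w c p).1 := by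
  obtain ⟨p, hp⟩ := p
  subst hp
  rfl

/-- Glue distributions of the pieces to the forms. -/
def glueR (ρ : ∀ c, PC part Q c → Cls part c × Fin q) : Fin a × Fin Q → Fin a × Fin q :=
  fun p => ((ρ (part p.1) ⟨p, rfl⟩).1.1, (ρ (part p.1) ⟨p, rfl⟩).2)

theorem glueR_apply (ρ : ∀ c, PC part Q c → Cls part c × Fin q) (c : Fin a) (p : PC part Q c) :
    glueR part ρ p.1 = ((ρ c p).1.1, (ρ c p).2) := by
  obtain ⟨p, hp⟩ := p
  subst hp
  rfl

theorem glueR_fib {k : ℕ} (ρ : ∀ c, PC part Q c → Cls part c × Fin q)
    (hρ : ∀ c r, (univ.filter (fun p => ρ c p = r)).card = k) (r : Fin a × Fin q) :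
    (univ.filter (fun p => glueR part ρ p = r)).card = k := by
  rw [← hρ (part r.1) (⟨r.1, rfl⟩, r.2)]
  have hpt : ∀ p, glueR part ρ p = r → part p.1 = part r.1 := by
    intro p hp
    rw [← hp]
    exact (ρ (part p.1) ⟨p, rfl⟩).1.2.symm
  refine Finset.card_bij' (fun p hp => (⟨p, hpt p (mem_filter.1 hp).2⟩ : PC part Q (part r.1)))
    (fun p _ => p.1) ?_ ?_ ?_ ?_
  · intro p hp
    have h1 := glueR_apply part ρ (part r.1) ⟨p, hpt p (mem_filter.1 hp).2⟩
    have h2 : glueR part ρ p = r := (mem_filter.1 hp).2
    rw [mem_filter]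
    refine ⟨mem_univ _, ?_⟩
    have h3 := h2.symm.trans h1
    ext
    · exact congrArg (fun x => (x.1 : ℕ)) h3.symm
    · exact congrArg (fun x => (x.2 : ℕ)) h3.symm
  · intro p hp
    have h1 := glueR_apply part ρ (part r.1) p
    rw [(mem_filter.1 hp).2] at h1
    exact mem_filter.2 ⟨mem_univ _, h1⟩
  · intro p _
    rfl
  · intro p _
    rfl

/-- Filling of a grouping: every row gets `q * k` pieces. -/
theorem fib_rows {k : ℕ} (ρ : Fin a × Fin Q → Fin a × Fin q)
    (hρ : ∀ r, (univ.filter (fun p => ρ p = r)).card = k) (σ : Equiv.Perm (Fin a × Fin q))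
    (m : Fin a) : (univ.filter (fun p => (σ (ρ p)).1 = m)).card = q * k := by
  have h1 : univ.filter (fun p => (σ (ρ p)).1 = m) =
      (univ : Finset (Fin q)).biUnion (fun t => univ.filter (fun p => ρ p = σ.symm (m, t))) := by
    ext p
    simp only [mem_filter, mem_univ, true_and, mem_biUnion]
    constructor
    · intro h
      refine ⟨(σ (ρ p)).2, ?_⟩
      rw [Equiv.eq_symm_apply, ← h]
    · rintro ⟨t, ht⟩
      rw [Equiv.eq_symm_apply] at ht
      rw [ht]
  rw [h1, card_biUnion]
  · simp [hρ]
  · intro t _ t' _ htt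
    rw [Function.onFun, Finset.disjoint_left]
    intro p hp hp'
    have h2 := (mem_filter.1 hp).2
    have h3 := (mem_filter.1 hp').2
    have h4 := σ.symm.injective (h2.symm.trans h3)
    exact htt (congrArg Prod.snd h4)

/-- TENSOR TRICK: if every surviving regrouping of the pieces preserves the parts (up to a
permutation of the rows) and the system `PM` is solved for every part, then the filling vanishes. -/
theorem tensor {k : ℕ} (hk : 1 ≤ k)
    (hPM : ∀ i, PM (univ.filter (fun j => part j = part i)).card k q)
    (V : (Fin a × Fin (q * k) → Fin a) → ℂ)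
    (hsym : ∀ (τ : Equiv.Perm (Fin a)) y, V (fun p => τ (y p)) = V y)
    (hrel : ∀ ρ : Fin a × Fin (q * k) → Fin a × Fin q,
      (∀ r, (univ.filter (fun p => ρ p = r)).card = k) →
      ∑ σ : Equiv.Perm (Fin a × Fin q), V (fun p => (σ (ρ p)).1) = 0)
    (hsupp : ∀ y, (∀ m, (univ.filter (fun p => y p = m)).card = q * k) → V y ≠ 0 →
      ∃ τ : Equiv.Perm (Fin a), ∀ p, part (τ (y p)) = part p.1) :
    V Prod.fst = 0 := by
  classical
  have hmain := tensor_abs (ι := Fin a) (X := fun c => PC part (q * k) c → Cls part c)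
    (A := fun c => {ρ : PC part (q * k) c → Cls part c × Fin q //
      ∀ r, (univ.filter (fun p => ρ p = r)).card = k})
    (G := fun c => Equiv.Perm (Cls part c × Fin q))
    (fun c ρ g p => (g (ρ.1 p)).1)
    (fun c w => ∀ m, (univ.filter (fun p => w p = m)).card = q * k)
    (fun c s => ∃ τ : Equiv.Perm (Cls part c), ∀ w p, s w p = τ (w p))
    ?_ (fun w => V (glue part w)) ?_ ?_ (fun c p => ⟨p.1.1, p.2⟩) ?_
  · exact hmain
  · -- the system for one part
    intro c W hs hr w hw
    by_cases hc : ∃ i, part i = c
    · obtain ⟨i, rfl⟩ := hc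
      refine (hPM i).general (R := Cls part (part i)) ?_ W ?_ ?_ w hw
      · rw [Fintype.card_subtype]
      · intro τ x
        exact hs (fun w p => τ (w p)) ⟨τ, fun _ _ => rfl⟩ x
      · intro ρ hρ
        exact hr ⟨ρ, hρ⟩
    · have hemp : IsEmpty (PC part (q * k) c) := ⟨fun p => hc ⟨p.1.1, p.2⟩⟩
      have hempR : IsEmpty (Cls part c) := ⟨fun i => hc ⟨i.1, i.2⟩⟩
      have h1 := hr ⟨fun p => hemp.elim p, fun r => (hempR.elim r.1)⟩
      have h2 : ∀ g : Equiv.Perm (Cls part c × Fin q),
          W (fun p => (g ((fun p => hemp.elim p : PC part (q * k) c → Cls part c × Fin q) p)).1) =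
          W w := by
        intro g
        congr 1
        funext p
        exact hemp.elim p
      simp only [h2, Finset.sum_const, card_univ, nsmul_eq_mul] at h1
      rcases mul_eq_zero.1 h1 with h | h
      · exact absurd h (by exact_mod_cast Fintype.card_ne_zero)
      · exact h
  · -- symmetry
    rintro c s ⟨τ, hτ⟩ w
    have h1 : glue part (Function.update w c (s (w c))) =
        fun p => (Equiv.Perm.ofSubtype τ) (glue part w p) := by
      funext p
      by_cases h : part p.1 = c
      · have h2 := glue_apply part (Function.update w c (s (w c))) c ⟨p, h⟩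
        have h3 := glue_apply part w c ⟨p, h⟩
        simp only at h2 h3
        rw [h2, h3, Function.update_self, hτ, Equiv.Perm.ofSubtype_apply_coe]
      · have h2 := glue_apply part (Function.update w c (s (w c))) (part p.1) ⟨p, rfl⟩
        have h3 := glue_apply part w (part p.1) ⟨p, rfl⟩
        simp only at h2 h3
        rw [h2, h3, Function.update_of_ne h]
        rw [Equiv.Perm.ofSubtype_apply_of_not_mem]
        intro h4
        exact h ((w (part p.1) ⟨p, rfl⟩).2.symm.trans h4)
    show V (glue part (Function.update w c (s (w c)))) = V (glue part w)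
    rw [h1, hsym]
  · -- relations
    intro ρ
    have hfib := glueR_fib part (fun c => (ρ c).1) (fun c => (ρ c).2)
    have hpart : ∀ p, part (glueR part (fun c => (ρ c).1) p).1 = part p.1 :=
      fun p => ((ρ (part p.1)).1 ⟨p, rfl⟩).1.2
    have h1 := part_sum part (q := q)
      (fun σ => V (fun p => (σ (glueR part (fun c => (ρ c).1) p)).1)) ?_ (hrel _ hfib) ?_
    · rw [← h1]
      apply Finset.sum_congr rfl
      intro g _
      congr 1
      funext p
      have h2 := emb_apply part g (part p.1) ((ρ (part p.1)).1 ⟨p, rfl⟩)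
      exact (congrArg Prod.fst h2).symm
    · intro τ σ
      exact hsym τ (fun p => (σ (glueR part (fun c => (ρ c).1) p)).1)
    · intro σ hσ
      obtain ⟨τ, hτ⟩ := hsupp _ (fib_rows _ hfib σ) hσ
      refine ⟨τ, fun x => ?_⟩
      have hx : (univ.filter (fun p => glueR part (fun c => (ρ c).1) p = x)).Nonempty := by
        rw [← card_pos, hfib x]
        omega
      obtain ⟨p, hp⟩ := hx
      have hp' := (mem_filter.1 hp).2
      rw [← hp', hτ p, hpart]
  · -- the rows are full
    intro c m
    have h2 : (univ.filter (fun p : PC part (q * k) c => (⟨p.1.1, p.2⟩ : Cls part c) = m)).card =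
        (univ : Finset (Fin (q * k))).card := by
      refine Finset.card_bij' (fun p _ => p.1.2)
        (fun κ _ => (⟨(m.1, κ), m.2⟩ : PC part (q * k) c)) ?_ ?_ ?_ ?_
      · intro p _
        exact mem_univ _
      · intro κ _
        exact mem_filter.2 ⟨mem_univ _, rfl⟩
      · intro p hp
        have h3 := (mem_filter.1 hp).2
        rw [← h3]
      · intro κ _
        rfl
    rw [h2, card_univ, Fintype.card_fin]

end glue

end Vale.Agent.P181.GK
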