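import Vale.Agent.P181.H649.Tensor

/-!
P181, general number of rows: tensor trick, pieces of two types.
-/

set_option autoImplicit false

namespace Vale.Agent.P181.GK

open Finset

/-- The power map system for `s` rows, `q` forms per row, `c z` pieces of type `z` per form. -/
def PM2 (s q : ℕ) (c : Bool → ℕ) : Prop :=
  ∀ (P : Type) [Fintype P] [DecidableEq P] (ty : P → Bool) (W : (P → Fin s) → ℂ),
    (∀ (τ : Equiv.Perm (Fin s)) y, W (fun p => τ (y p)) = W y) →
    (∀ ρ : P → Fin s × Fin q,
      (∀ r z, (univ.filter (fun p => ρ p = r ∧ ty p = z)).card = c z) →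
      ∑ σ : Equiv.Perm (Fin s × Fin q), W (fun p => (σ (ρ p)).1) = 0) →
    ∀ y : P → Fin s, (∀ m z, (univ.filter (fun p => y p = m ∧ ty p = z)).card = q * c z) →
      W y = 0

/-- The same for any finite set of rows. -/
theorem PM2.general {s q : ℕ} {c : Bool → ℕ} (h : PM2 s q c) {R P : Type} [Fintype R]
    [DecidableEq R] [Fintype P] [DecidableEq P] (hR : Fintype.card R = s) (ty : P → Bool)
    (W : (P → R) → ℂ) (hsym : ∀ (τ : Equiv.Perm R) y, W (fun p => τ (y p)) = W y)
    (hrel : ∀ ρ : P → R × Fin q,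
      (∀ r z, (univ.filter (fun p => ρ p = r ∧ ty p = z)).card = c z) →
      ∑ σ : Equiv.Perm (R × Fin q), W (fun p => (σ (ρ p)).1) = 0)
    (y : P → R) (hy : ∀ m z, (univ.filter (fun p => y p = m ∧ ty p = z)).card = q * c z) :
    W y = 0 := by
  classical
  let e : R ≃ Fin s := Fintype.equivFinOfCardEq hR
  have h1 := h P ty (fun w => W (fun p => e.symm (w p))) ?_ ?_ (fun p => e (y p)) ?_
  · simpa using h1
  · intro τ w
    have := hsym ((e.trans τ).trans e.symm) (fun p => e.symm (w p))
    simpa using this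
  · intro ρ hρ
    have h2 := hrel (fun p => (e.symm (ρ p).1, (ρ p).2)) ?_
    · rw [← h2]
      let E : R × Fin q ≃ Fin s × Fin q := Equiv.prodCongr e (Equiv.refl _)
      refine (Fintype.sum_equiv E.symm.permCongr _ _ ?_)
      intro σ
      congr 1
      funext p
      have h3 : E (e.symm (ρ p).1, (ρ p).2) = ρ p := by
        simp [E]
      simp only [Equiv.permCongr_apply, Equiv.symm_symm, h3]
      rfl
    · intro r z
      rw [← hρ (e r.1, r.2) z]
      congr 1
      ext p
      simp only [mem_filter, mem_univ, true_and, Prod.ext_iff]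
      rw [Equiv.symm_apply_eq]
  · intro m z
    rw [← hy (e.symm m) z]
    congr 1
    ext p
    simp only [mem_filter, mem_univ, true_and]
    rw [Equiv.eq_symm_apply]

section glue

variable {a q Q : ℕ} (part : Fin a → Fin a)

theorem glueR_fib2 {c : Bool → ℕ} (ty : Fin Q → Bool)
    (ρ : ∀ c, PC part Q c → Cls part c × Fin q)
    (hρ : ∀ d r z, (univ.filter (fun p => ρ d p = r ∧ ty p.1.2 = z)).card = c z)
    (r : Fin a × Fin q) (z : Bool) :
    (univ.filter (fun p => glueR part ρ p = r ∧ ty p.2 = z)).card = c z := by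
  rw [← hρ (part r.1) (⟨r.1, rfl⟩, r.2) z]
  have hpt : ∀ p, glueR part ρ p = r → part p.1 = part r.1 := by
    intro p hp
    rw [← hp]
    exact (ρ (part p.1) ⟨p, rfl⟩).1.2.symm
  refine Finset.card_bij'
    (fun p hp => (⟨p, hpt p (mem_filter.1 hp).2.1⟩ : PC part Q (part r.1)))
    (fun p _ => p.1) ?_ ?_ ?_ ?_
  · intro p hp
    have h1 := glueR_apply part ρ (part r.1) ⟨p, hpt p (mem_filter.1 hp).2.1⟩
    have h2 : glueR part ρ p = r := (mem_filter.1 hp).2.1
    rw [mem_filter]
    refine ⟨mem_univ _, ?_, (mem_filter.1 hp).2.2⟩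
    have h3 := h2.symm.trans h1
    ext
    · exact congrArg (fun x => (x.1 : ℕ)) h3.symm
    · exact congrArg (fun x => (x.2 : ℕ)) h3.symm
  · intro p hp
    have h1 := glueR_apply part ρ (part r.1) p
    rw [(mem_filter.1 hp).2.1] at h1
    exact mem_filter.2 ⟨mem_univ _, h1, (mem_filter.1 hp).2.2⟩
  · intro p _
    rfl
  · intro p _
    rfl

/-- Filling of a typed grouping: every row gets `q * c z` pieces of type `z`. -/
theorem fib_rows2 {c : Bool → ℕ} (ty : Fin Q → Bool) (ρ : Fin a × Fin Q → Fin a × Fin q)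
    (hρ : ∀ r z, (univ.filter (fun p => ρ p = r ∧ ty p.2 = z)).card = c z)
    (σ : Equiv.Perm (Fin a × Fin q)) (m : Fin a) (z : Bool) :
    (univ.filter (fun p => (σ (ρ p)).1 = m ∧ ty p.2 = z)).card = q * c z := by
  have h1 : univ.filter (fun p => (σ (ρ p)).1 = m ∧ ty p.2 = z) =
      (univ : Finset (Fin q)).biUnion
        (fun t => univ.filter (fun p => ρ p = σ.symm (m, t) ∧ ty p.2 = z)) := by
    ext p
    simp only [mem_filter, mem_univ, true_and, mem_biUnion]
    constructor
    · rintro ⟨h, h'⟩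
      refine ⟨(σ (ρ p)).2, ?_, h'⟩
      rw [Equiv.eq_symm_apply, ← h]
    · rintro ⟨t, ht, h'⟩
      rw [Equiv.eq_symm_apply] at ht
      exact ⟨by rw [ht], h'⟩
  rw [h1, card_biUnion]
  · simp [hρ]
  · intro t _ t' _ htt
    rw [Function.onFun, Finset.disjoint_left]
    intro p hp hp'
    have h2 := (mem_filter.1 hp).2.1
    have h3 := (mem_filter.1 hp').2.1
    have h4 := σ.symm.injective (h2.symm.trans h3)
    exact htt (congrArg Prod.snd h4)

/-- TENSOR TRICK, two types of pieces. -/
theorem tensor2 (ty : Fin Q → Bool) (c : Bool → ℕ) (hc : ∃ z, 1 ≤ c z)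
    (hPM : ∀ i, PM2 (univ.filter (fun j => part j = part i)).card q c)
    (V : (Fin a × Fin Q → Fin a) → ℂ)
    (hsym : ∀ (τ : Equiv.Perm (Fin a)) y, V (fun p => τ (y p)) = V y)
    (hrel : ∀ ρ : Fin a × Fin Q → Fin a × Fin q,
      (∀ r z, (univ.filter (fun p => ρ p = r ∧ ty p.2 = z)).card = c z) →
      ∑ σ : Equiv.Perm (Fin a × Fin q), V (fun p => (σ (ρ p)).1) = 0)
    (hQ : ∀ z, (univ.filter (fun κ => ty κ = z)).card = q * c z)
    (hsupp : ∀ y, (∀ m z, (univ.filter (fun p => y p = m ∧ ty p.2 = z)).card = q * c z) →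
      V y ≠ 0 → ∃ τ : Equiv.Perm (Fin a), ∀ p, part (τ (y p)) = part p.1) :
    V Prod.fst = 0 := by
  classical
  obtain ⟨z₀, hz₀⟩ := hc
  have hmain := tensor_abs (ι := Fin a) (X := fun d => PC part Q d → Cls part d)
    (A := fun d => {ρ : PC part Q d → Cls part d × Fin q //
      ∀ r z, (univ.filter (fun p => ρ p = r ∧ ty p.1.2 = z)).card = c z})
    (G := fun d => Equiv.Perm (Cls part d × Fin q))
    (fun d ρ g p => (g (ρ.1 p)).1)
    (fun d w => ∀ m z, (univ.filter (fun p => w p = m ∧ ty p.1.2 = z)).card = q * c z)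
    (fun d s => ∃ τ : Equiv.Perm (Cls part d), ∀ w p, s w p = τ (w p))
    ?_ (fun w => V (glue part w)) ?_ ?_ (fun d p => ⟨p.1.1, p.2⟩) ?_
  · exact hmain
  · -- the system for one part
    intro d W hs hr w hw
    by_cases hd : ∃ i, part i = d
    · obtain ⟨i, rfl⟩ := hd
      refine (hPM i).general (R := Cls part (part i)) ?_ (fun p => ty p.1.2) W ?_ ?_ w hw
      · rw [Fintype.card_subtype]
      · intro τ x
        exact hs (fun w p => τ (w p)) ⟨τ, fun _ _ => rfl⟩ x
      · intro ρ hρ
        exact hr ⟨ρ, hρ⟩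
    · have hemp : IsEmpty (PC part Q d) := ⟨fun p => hd ⟨p.1.1, p.2⟩⟩
      have hempR : IsEmpty (Cls part d) := ⟨fun i => hd ⟨i.1, i.2⟩⟩
      have h1 := hr ⟨fun p => hemp.elim p, fun r => (hempR.elim r.1)⟩
      have h2 : ∀ g : Equiv.Perm (Cls part d × Fin q),
          W (fun p => (g ((fun p => hemp.elim p : PC part Q d → Cls part d × Fin q) p)).1) =
          W w := by
        intro g
        congr 1
        funext p
        exact hemp.elim p
      simp only [h2, Finset.sum_const, card_univ, nsmul_eq_mul] at h1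
      rcases mul_eq_zero.1 h1 with h | h
      · exact absurd h (by exact_mod_cast Fintype.card_ne_zero)
      · exact h
  · -- symmetry
    rintro d s ⟨τ, hτ⟩ w
    have h1 : glue part (Function.update w d (s (w d))) =
        fun p => (Equiv.Perm.ofSubtype τ) (glue part w p) := by
      funext p
      by_cases h : part p.1 = d
      · have h2 := glue_apply part (Function.update w d (s (w d))) d ⟨p, h⟩
        have h3 := glue_apply part w d ⟨p, h⟩
        simp only at h2 h3
        rw [h2, h3, Function.update_self, hτ, Equiv.Perm.ofSubtype_apply_coe]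
      · have h2 := glue_apply part (Function.update w d (s (w d))) (part p.1) ⟨p, rfl⟩
        have h3 := glue_apply part w (part p.1) ⟨p, rfl⟩
        simp only at h2 h3
        rw [h2, h3, Function.update_of_ne h]
        rw [Equiv.Perm.ofSubtype_apply_of_not_mem]
        intro h4
        exact h ((w (part p.1) ⟨p, rfl⟩).2.symm.trans h4)
    show V (glue part (Function.update w d (s (w d)))) = V (glue part w)
    rw [h1, hsym]
  · -- relations
    intro ρ
    have hfib := glueR_fib2 part ty (fun d => (ρ d).1) (fun d => (ρ d).2)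
    have hpart : ∀ p, part (glueR part (fun d => (ρ d).1) p).1 = part p.1 :=
      fun p => ((ρ (part p.1)).1 ⟨p, rfl⟩).1.2
    have h1 := part_sum part (q := q)
      (fun σ => V (fun p => (σ (glueR part (fun d => (ρ d).1) p)).1)) ?_ (hrel _ hfib) ?_
    · rw [← h1]
      apply Finset.sum_congr rfl
      intro g _
      congr 1
      funext p
      have h2 := emb_apply part g (part p.1) ((ρ (part p.1)).1 ⟨p, rfl⟩)
      exact (congrArg Prod.fst h2).symm
    · intro τ σ
      exact hsym τ (fun p => (σ (glueR part (fun d => (ρ d).1) p)).1)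
    · intro σ hσ
      obtain ⟨τ, hτ⟩ := hsupp _ (fib_rows2 ty _ hfib σ) hσ
      refine ⟨τ, fun x => ?_⟩
      have hx : (univ.filter
          (fun p => glueR part (fun d => (ρ d).1) p = x ∧ ty p.2 = z₀)).Nonempty := by
        rw [← card_pos, hfib x z₀]
        omega
      obtain ⟨p, hp⟩ := hx
      have hp' := (mem_filter.1 hp).2.1
      rw [← hp', hτ p, hpart]
  · -- the rows are full
    intro d m z
    have h2 : (univ.filter (fun p : PC part Q d =>
        (⟨p.1.1, p.2⟩ : Cls part d) = m ∧ ty p.1.2 = z)).card =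
        (univ.filter (fun κ => ty κ = z)).card := by
      refine Finset.card_bij' (fun p _ => p.1.2)
        (fun κ _ => (⟨(m.1, κ), m.2⟩ : PC part Q d)) ?_ ?_ ?_ ?_
      · intro p hp
        exact mem_filter.2 ⟨mem_univ _, (mem_filter.1 hp).2.2⟩
      · intro κ hκ
        exact mem_filter.2 ⟨mem_univ _, rfl, (mem_filter.1 hκ).2⟩
      · intro p hp
        have h3 := (mem_filter.1 hp).2.1
        rw [← h3]
      · intro κ _
        rfl
    rw [h2, hQ]

end glue

end Vale.Agent.P181.GK
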